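import Mathlib

/-!
The reduced system (notes/P244.md).  Space variable `y ∈ [0, 1]`, time `t`.
Metric: `e^{2A} |dX|² / (1 + |X|²)² + e^{2β} g_{S⁵}` on `S⁶ × S⁵`, `y = |X|² / (1 + |X|²)`.
-/

namespace Vale.Agent.P244

open scoped ContDiff Topology
open Set Filter

noncomputable section

/-- Functions of `(t, y)`. -/
abbrev Fn := ℝ → ℝ → ℝ

/-- The `y`-derivative within `[0, 1]`. -/
def dY (u : Fn) : Fn := fun t y => derivWithin (u t) (Icc 0 1) y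

/-- The degenerate elliptic operator `4 v ∂² + 12 c ∂`, `v = y (1 - y)`, `c = 1 - 2 y`. -/
def DD (u : Fn) : Fn := fun t y => 4 * (y * (1 - y)) * dY (dY u) t y + 12 * (1 - 2 * y) * dY u t y

/-- Right-hand side of the `A`-equation. -/
def rhsA (A B : Fn) : Fn := fun t y =>
  Real.exp (-2 * A t y) * (DD A t y - 20) + B t y * (1 - 2 * y + 2 * (y * (1 - y)) * dY A t y)

/-- Right-hand side of the `β`-equation. -/
def rhsB (A β B : Fn) : Fn := fun t y =>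
  Real.exp (-2 * A t y) * DD β t y + 2 * (y * (1 - y)) * B t y * dY β t y -
    4 * Real.exp (-2 * β t y)

/-- Smooth on `I × [0, 1]`. -/
def Sm (I : Set ℝ) (u : Fn) : Prop :=
  ContDiffOn ℝ ∞ (fun p : ℝ × ℝ => u p.1 p.2) (I ×ˢ Icc 0 1)

/-- A smooth solution of the reduced system for times in `I` (`Icc 0 t` or `Ico 0 T`). -/
structure IsSol (I : Set ℝ) (A β B : Fn) : Prop where
  smA : Sm I A
  smβ : Sm I β
  smB : Sm I B
  eqA : ∀ t ∈ I, ∀ y ∈ Icc (0 : ℝ) 1, HasDerivWithinAt (fun s => A s y) (rhsA A B t y) I t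
  eqβ : ∀ t ∈ I, ∀ y ∈ Icc (0 : ℝ) 1, HasDerivWithinAt (fun s => β s y) (rhsB A β B t y) I t
  eqB : ∀ t ∈ I, ∀ y ∈ Icc (0 : ℝ) 1, dY B t y =
    -2 * Real.exp (-2 * A t y) * (4 * dY A t y ^ 2 + 5 * dY β t y ^ 2)
  one : ∀ t ∈ I, B t 1 = 0

/-- The scalar curvature of the metric. -/
def Rf (A β : Fn) : Fn := fun t y =>
  Real.exp (-2 * A t y) * (120 - 120 * (1 - 2 * y) * (dY A t y + dY β t y) -
    40 * (y * (1 - y)) * (dY (dY A) t y + dY (dY β) t y) -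
    y * (1 - y) * (80 * dY A t y ^ 2 + 160 * dY A t y * dY β t y + 120 * dY β t y ^ 2)) +
  20 * Real.exp (-2 * β t y)

/-- The continuation norm of `u` at time `t` is at most `N`. -/
def Nb (u : Fn) (t N : ℝ) : Prop :=
  ∀ y ∈ Icc (0 : ℝ) 1, |u t y| ≤ N ∧ |dY u t y| ≤ N ∧ |y * (1 - y) * dY (dY u) t y| ≤ N

/-- The `C^m` norm of `u` at time `t` is at most `N`. -/
def Cm (m : ℕ) (u : Fn) (t N : ℝ) : Prop :=
  ∀ i ≤ m, ∀ y ∈ Icc (0 : ℝ) 1, |dY^[i] u t y| ≤ N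

end

end Vale.Agent.P244
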