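import Vale.Agent.P244.X.Extend
import Vale.Agent.P244.X.Compact

/-!
BLOCK X (notes/P244.md, Part X): existence theory of the reduced system.
-/

namespace Vale.Agent.P244

open scoped ContDiff Topology
open Set Filter

/-- X1: local existence, with time depending only on the `C²` norm of the data. -/
theorem ex_start (N : ℝ) : ∃ δ > 0, ∃ N', ∀ a b : Fn,
    ContDiffOn ℝ ∞ (a 0) (Icc 0 1) → ContDiffOn ℝ ∞ (b 0) (Icc 0 1) → Cm 2 a 0 N → Cm 2 b 0 N →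
    ∃ A β B : Fn, IsSol (Icc 0 δ) A β B ∧ EqOn (A 0) (a 0) (Icc 0 1) ∧
      EqOn (β 0) (b 0) (Icc 0 1) ∧ ∀ t ∈ Icc 0 δ, Nb A t N' ∧ Nb β t N' := by
  obtain ⟨δ, hδ, N', h⟩ := X.x_start N
  refine ⟨δ, hδ, N', fun a b ha hb ca cb => ?_⟩
  obtain ⟨A, β, B, h1, h2, h3, h4⟩ := h (a 0) (b 0) ha hb (X.cm_iff.1 ca) (X.cm_iff.1 cb)
  exact ⟨A, β, B, h1, h2, h3, fun t ht => ⟨(h4 t ht).1.nb, (h4 t ht).2.nb⟩⟩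

/-- X2: higher regularity from the continuation norm. -/
theorem ex_reg (m : ℕ) (N N₀ T : ℝ) : ∃ N', ∀ t₁ ∈ Ioc 0 T, ∀ A β B : Fn,
    IsSol (Icc 0 t₁) A β B → (∀ t ∈ Icc 0 t₁, Nb A t N ∧ Nb β t N) → Cm m A 0 N₀ → Cm m β 0 N₀ →
    ∀ t ∈ Icc 0 t₁, Cm m A t N' ∧ Cm m β t N' := by
  simp only [X.cm_iff]
  exact X.x_reg m N N₀ T

/-- X3: uniqueness. -/
theorem ex_uniq {t₁ : ℝ} (ht : 0 < t₁) {A β B A' β' B' : Fn} (h : IsSol (Icc 0 t₁) A β B)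
    (h' : IsSol (Icc 0 t₁) A' β' B') (hA : EqOn (A 0) (A' 0) (Icc 0 1))
    (hβ : EqOn (β 0) (β' 0) (Icc 0 1)) :
    ∀ t ∈ Icc 0 t₁, EqOn (A t) (A' t) (Icc 0 1) ∧ EqOn (β t) (β' t) (Icc 0 1) ∧
      EqOn (B t) (B' t) (Icc 0 1) := by
  exact X.x_uniq ht h h' hA hβ

/-- X4: continuation by a definite amount of time. -/
theorem ex_extend (N T : ℝ) : ∃ δ > 0, ∃ N', ∀ t₁ ∈ Ioc 0 T, ∀ A β B : Fn,
    IsSol (Icc 0 t₁) A β B → (∀ t ∈ Icc 0 t₁, Nb A t N ∧ Nb β t N) → Cm 2 A 0 N → Cm 2 β 0 N →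
    ∃ A' β' B' : Fn, IsSol (Icc 0 (t₁ + δ)) A' β' B' ∧
      (∀ t ∈ Icc 0 t₁, EqOn (A' t) (A t) (Icc 0 1) ∧ EqOn (β' t) (β t) (Icc 0 1)) ∧
      ∀ t ∈ Icc 0 (t₁ + δ), Nb A' t N' ∧ Nb β' t N' := by
  simp only [X.cm_iff]
  exact X.x_extend N T

/-- X5: compactness. -/
theorem ex_compact {t₁ N : ℝ} (ht : 0 < t₁) {A β B : ℕ → Fn}
    (h : ∀ n, IsSol (Icc 0 t₁) (A n) (β n) (B n))
    (hN : ∀ n, ∀ t ∈ Icc 0 t₁, Nb (A n) t N ∧ Nb (β n) t N)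
    (h0 : ∀ m, ∃ N₀, ∀ n, Cm m (A n) 0 N₀ ∧ Cm m (β n) 0 N₀) (U : Ultrafilter ℕ) :
    ∃ A' β' B' : Fn, IsSol (Icc 0 t₁) A' β' B' ∧ ∀ m : ℕ,
      TendstoUniformlyOn (fun n (p : ℝ × ℝ) => dY^[m] (A n) p.1 p.2)
        (fun p => dY^[m] A' p.1 p.2) U (Icc 0 t₁ ×ˢ Icc 0 1) ∧
      TendstoUniformlyOn (fun n (p : ℝ × ℝ) => dY^[m] (β n) p.1 p.2)
        (fun p => dY^[m] β' p.1 p.2) U (Icc 0 t₁ ×ˢ Icc 0 1) := by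
  simp only [X.cm_iff] at h0
  simp only [X.dY_iter_slice]
  exact X.x_compact ht h hN h0 U

end Vale.Agent.P244
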