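import Vale.Agent.P244.Q

/-!
The output of the a priori estimates (block A) which the topological argument (block T) uses.
-/

namespace Vale.Agent.P244

open scoped ContDiff Topology
open Set Filter Real

/-- A trapped solution with the initial data of parameter `c`. -/
structure Run (κ : Cst) (S : St) (c : Fin 3 → ℝ) (t₁ : ℝ) : Prop where
  sol : S.Sol t₁
  data : Data κ.δ S c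
  trap : Trap κ S t₁

/-- Positivity of the constants. -/
structure Cst.Pos (κ : Cst) : Prop where
  A1 : 1 ≤ κ.A1
  Am : 1 ≤ κ.Am
  AE : 1 ≤ κ.AE
  AS : 1 ≤ κ.AS
  η : 0 < κ.η
  η' : κ.η ≤ 1 / 100
  δ : 0 < κ.δ
  δ' : κ.δ ≤ 1 / 100
  s : 0 < κ.s
  s' : κ.s ≤ 1 / 10

/-- Facts on the initial data. -/
structure GoodData (κ : Cst) (τ₀ : ℝ) : Prop where
  smooth : ∀ c : Fin 3 → ℝ, (∀ j, |c j| ≤ 1) → ContDiffOn ℝ ∞ ((S0 κ.δ τ₀ c).A 0) (Icc 0 1) ∧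
    ContDiffOn ℝ ∞ ((S0 κ.δ τ₀ c).β 0) (Icc 0 1)
  cm : ∀ m, ∃ N, ∀ c : Fin 3 → ℝ, (∀ j, |c j| ≤ 1) →
    Cm m (S0 κ.δ τ₀ c).A 0 N ∧ Cm m (S0 κ.δ τ₀ c).β 0 N
  cont : ∀ y ∈ Icc (0 : ℝ) 1,
    ContinuousOn (fun c => (S0 κ.δ τ₀ c).β 0 y) {c : Fin 3 → ℝ | ∀ j, |c j| ≤ 1}
  tr : ∀ c : Fin 3 → ℝ, (∀ j, |c j| ≤ 1) → Tr κ (S0 κ.δ τ₀ c) (1 / 2) 0
  lev : ∀ c : Fin 3 → ℝ, 2 * κ.η * τ₀ < (S0 κ.δ τ₀ c).rho 0 (κ.s ^ 3)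
  ex : ∃ x : (Fin 3 → ℝ) → Fin 3 → ℝ, ContinuousOn x {c : Fin 3 → ℝ | ∀ j, |c j| ≤ 1} ∧
    ∀ c : Fin 3 → ℝ, (∀ j, |c j| ≤ 1) → Ex κ (S0 κ.δ τ₀ c) 0 (x c) ∧
      ∀ j, (c j = 1 → 1 ≤ x c j) ∧ (c j = -1 → x c j ≤ -1)

/-- The a priori estimates for trapped solutions. -/
structure GoodRun (κ : Cst) (τ₀ : ℝ) : Prop where
  impr : ∀ S c t₁, S.τ₀ = τ₀ → Run κ S c t₁ → ∀ t ∈ Icc 0 t₁, Tr κ S (1 / 2) t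
  lev : ∀ S c t₁, S.τ₀ = τ₀ → Run κ S c t₁ → ∀ t ∈ Icc 0 t₁,
    2 * κ.η * (τ₀ - t) < S.rho t (κ.s ^ 3)
  trans : ∀ S c t₁, S.τ₀ = τ₀ → Run κ S c t₁ → ∀ t ∈ Ico 0 t₁, ∀ x, Ex κ S t x → ∀ j, |x j| < 1
  scal : ∃ C, ∀ S c t₁, S.τ₀ = τ₀ → Run κ S c t₁ → ∀ t ∈ Icc 0 t₁, ∀ y ∈ Icc (0 : ℝ) 1,
    |Rf S.A S.β t y| ≤ C
  norm : ∀ T < τ₀, ∃ N, ∀ S c t₁, S.τ₀ = τ₀ → Run κ S c t₁ → t₁ ≤ T → ∀ t ∈ Icc 0 t₁,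
    Nb S.A t N ∧ Nb S.β t N
  deg : ∀ S c t₁, S.τ₀ = τ₀ → Run κ S c t₁ → ∀ t ∈ Icc 0 t₁, S.HH t 0 ≤ 2 * (τ₀ - t) ^ 3

end Vale.Agent.P244
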