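import Vale.Agent.P244.Kit.Sm

/-!
Geometric quantities of a solution, the trap and the initial data (notes/P244.md, Part A).
-/

namespace Vale.Agent.P244

open scoped ContDiff Topology
open Set Filter Real

noncomputable section

/-- The `ξ`-derivative `' = 2 y (1 - y) ∂_y`. -/
def dX (u : Fn) : Fn := fun t y => 2 * (y * (1 - y)) * dY u t y

/-- The Euler derivative `X = y ∂_y`. -/
def XX (u : Fn) : Fn := fun t y => y * dY u t y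

/-- The cubic cone solution `P(τ, ϱ)`. -/
def PP (τ r : ℝ) : ℝ := τ ^ 3 - 27 / 40 * τ ^ 2 * r + 243 / 2240 * τ * r ^ 2 - 81 / 17920 * r ^ 3

/-- `∂P/∂ϱ`. -/
def PP1 (τ r : ℝ) : ℝ := -(27 / 40) * τ ^ 2 + 243 / 1120 * τ * r - 243 / 17920 * r ^ 2

/-- Unknowns and the intended singular time. -/
structure St where
  A : Fn
  β : Fn
  B : Fn
  τ₀ : ℝ

namespace St

variable (S : St)

def f2 : Fn := fun t y => y * (1 - y) * exp (2 * S.A t y)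
def hh : Fn := fun t y => exp (S.β t y)
def th : Fn := fun t y => y * (1 - y) * exp (2 * S.A t y - 2 * S.β t y)
def HH : Fn := fun t y => exp (3 * S.β t y)
def KK : Fn := fun t y => y * (1 - y) * exp (2 * S.A t y + S.β t y)
def EE : Fn := fun t y => S.HH t y - S.KK t y
def aa : Fn := fun t y => 1 - 2 * y + dX S.A t y
def bb : Fn := dX S.β
def kk : Fn := fun t y => 2 * S.aa t y + S.bb t y
def WW : Fn := fun t y => 4 * S.aa t y ^ 2 + 5 * S.bb t y ^ 2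
/-- `Σ`. -/
def Sg : Fn := fun t y => 3 * (S.aa t y + S.bb t y) - 3 - S.th t y
/-- `n = E'`. -/
def nn : Fn := fun t y => 3 * S.bb t y * S.HH t y - S.kk t y * S.KK t y
/-- `m = E' / H`. -/
def mm : Fn := fun t y => S.nn t y / S.HH t y
/-- `ϑ`. -/
def vt : Fn := fun t y => S.bb t y - 2 / 3 * S.th t y
/-- `σ = τ + h²`. -/
def sg : Fn := fun t y => S.τ₀ - t + exp (2 * S.β t y)
/-- `u₁ = n / (f² σ²)`, desingularised. -/
def u1 : Fn := fun t y => 2 * exp (-2 * S.A t y) * (3 * dY S.β t y * S.HH t y -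
  S.kk t y / 2 * exp (2 * S.A t y + S.β t y)) / S.sg t y ^ 2
/-- `u₂ = Σ / f²`, desingularised at `y = 0`. -/
def u2 : Fn := fun t y => exp (-2 * S.A t y) * (6 * (dY S.A t y + dY S.β t y) - 6 / (1 - y)) -
  exp (-2 * S.β t y)
/-- `ϱ = K^{2/3}`. -/
def rho : Fn := fun t y => S.KK t y ^ (2 / 3 : ℝ)
/-- `D = d / dϱ`. -/
def Dr (u : Fn) : Fn := fun t y => 3 * dX u t y / (2 * S.kk t y * S.rho t y)
def Z0 : Fn := fun t y => S.EE t y - PP (S.τ₀ - t) (S.rho t y)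
/-- `Z₁ = D Z₀`, written out. -/
def Z1 : Fn := fun t y => 3 * S.nn t y / (2 * S.kk t y * S.rho t y) - PP1 (S.τ₀ - t) (S.rho t y)
def Z2 : Fn := S.Dr S.Z1
def Z3 : Fn := S.Dr S.Z2
/-- The parabolic operator `𝒫 u = f² u_t - (f² B + 4 c) u' - u''`. -/
def Pop (I : Set ℝ) (u : Fn) : Fn := fun t y => S.f2 t y * dT I u t y -
  (S.f2 t y * S.B t y + 4 * (1 - 2 * y)) * dX u t y - dX (dX u) t y
/-- The time derivative at fixed `ϱ`. -/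
def hT (I : Set ℝ) (u : Fn) : Fn := fun t y => dT I u t y - dT I S.rho t y * S.Dr u t y
def C1 : Fn := fun t y => -S.kk t y * S.th t y - 3 * S.bb t y -
  S.th t y * (1 - S.th t y) * (S.kk t y + 2) / (3 + S.th t y)
def cE : Fn := fun t y => 2 * S.th t y * (S.kk t y + 2) / (3 + S.th t y)
def Gam : Fn := fun t y =>
  12 * ((S.aa t y + S.bb t y) ^ 2 + (S.aa t y + S.bb t y) * (1 + S.th t y / 3) +
    (1 + S.th t y / 3) ^ 2) - 12 -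
  S.bb t y * (24 * (S.aa t y + S.bb t y + 1 + S.th t y / 3) - 4 * S.th t y) + 27 * S.bb t y ^ 2

/-- A solution on `[0, t₁]` with `0 < t₁ < τ₀ ≤ 1`. -/
structure Sol (t₁ : ℝ) : Prop where
  pos : 0 < t₁
  lt : t₁ < S.τ₀
  le : S.τ₀ ≤ 1
  sol : IsSol (Icc 0 t₁) S.A S.β S.B

end St

/-- The constants of the trap; `y₁ = s ^ 3`. -/
structure Cst where
  A1 : ℝ
  Am : ℝ
  AE : ℝ
  AS : ℝ
  η : ℝ
  δ : ℝ
  s : ℝ

/-- The inner part of the trap at one point, with margin `l` (`l = 1`: assumed, `l = 1/2`: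
improved). -/
structure TrI (κ : Cst) (S : St) (l t y : ℝ) : Prop where
  u2 : |S.u2 t y| ≤ l * κ.AS
  u1 : |S.u1 t y| ≤ l * κ.Am
  H : (S.τ₀ - t) ^ 3 ≤ 8 * l * S.HH t y
  E : |S.EE t y| ≤ l * κ.AE * S.sg t y ^ 3
  th : S.th t y ≤ 1 + l
  h : S.hh t y ≤ (1 + l) * κ.s
  k : 2 - l ≤ S.kk t y

/-- The trap at time `t` with margin `l`. -/
structure Tr (κ : Cst) (S : St) (l t : ℝ) : Prop where
  F1 : ∀ y ∈ Icc (0 : ℝ) 1, |XX S.A t y| ≤ l * κ.A1 ∧ |XX (XX S.A) t y| ≤ l * κ.A1 ∧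
    |XX S.β t y| ≤ l * κ.A1 ∧ |XX (XX S.β) t y| ≤ l * κ.A1
  F2 : ∀ y ∈ Icc (κ.s ^ 3) 1, |S.A t y - S.A 0 y| ≤ l ∧ |S.β t y - S.β 0 y| ≤ l
  I : ∀ y ∈ Icc 0 (κ.s ^ 3), TrI κ S l t y

/-- The normalised exit values at the level points `ya`, `yb`. -/
def exv (κ : Cst) (S : St) (t ya yb : ℝ) : Fin 3 → ℝ :=
  ![S.Z0 t ya / (κ.δ * (S.τ₀ - t) ^ 3), S.Z1 t ya / (κ.δ / 2 * (S.τ₀ - t) ^ 2),
    (S.Z1 t yb - S.Z1 t ya) / (κ.δ / 10 * κ.η * (S.τ₀ - t) ^ 2)]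

/-- `x` is the vector of exit values at time `t`. -/
def Ex (κ : Cst) (S : St) (t : ℝ) (x : Fin 3 → ℝ) : Prop :=
  ∃ ya ∈ Icc 0 (κ.s ^ 3), ∃ yb ∈ Icc 0 (κ.s ^ 3), S.rho t ya = κ.η * (S.τ₀ - t) ∧
    S.rho t yb = 2 * κ.η * (S.τ₀ - t) ∧ x = exv κ S t ya yb

/-- Trapped on `[0, t₁]`. -/
def Trap (κ : Cst) (S : St) (t₁ : ℝ) : Prop :=
  ∀ t ∈ Icc 0 t₁, Tr κ S 1 t ∧ ∃ x, Ex κ S t x ∧ ∀ j, |x j| ≤ 1

/-- `φ = (y² + τ₀⁴)^{1/3}`. -/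
def phi (τ₀ y : ℝ) : ℝ := (y ^ 2 + τ₀ ^ 4) ^ (1 / 3 : ℝ)

/-- The initial `H = h³`. -/
def H0 (δ τ₀ : ℝ) (c : Fin 3 → ℝ) (y : ℝ) : ℝ :=
  y * (1 - y) + y ^ 4 + PP τ₀ (phi τ₀ y) +
    δ * (2 * c 0 * τ₀ ^ 3 + c 1 * τ₀ ^ 2 * phi τ₀ y + c 2 / 10 * τ₀ * phi τ₀ y ^ 2)

/-- The initial data, as a time independent state. -/
def S0 (δ τ₀ : ℝ) (c : Fin 3 → ℝ) : St :=
  ⟨fun _ y => -(1 / 6) * log (H0 δ τ₀ c y), fun _ y => 1 / 3 * log (H0 δ τ₀ c y), fun _ _ => 0, τ₀⟩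

/-- `S` has the initial data with parameter `c` in the cube. -/
structure Data (δ : ℝ) (S : St) (c : Fin 3 → ℝ) : Prop where
  cube : ∀ j, |c j| ≤ 1
  A : EqOn (S.A 0) ((S0 δ S.τ₀ c).A 0) (Icc 0 1)
  β : EqOn (S.β 0) ((S0 δ S.τ₀ c).β 0) (Icc 0 1)

end

end Vale.Agent.P244
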