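import Vale.Agent.P244.T.Open
import Vale.Agent.P244.T.Closed
import Vale.Agent.P244.T.Shoot
import Vale.Agent.P244.T.Glue

/-!
BLOCK T (notes/P244.md, Part T): the shooting argument.
-/

namespace Vale.Agent.P244

open Set

theorem top {κ : Cst} {τ₀ : ℝ} (hκ : κ.Pos) (h0 : 0 < τ₀) (h1 : τ₀ ≤ 1) (hd : GoodData κ τ₀)
    (hr : GoodRun κ τ₀) : ∃ A β B : Fn, IsSol (Ico 0 τ₀) A β B ∧
      (∃ C, ∀ t ∈ Ico 0 τ₀, ∀ y ∈ Icc (0 : ℝ) 1, |Rf A β t y| ≤ C) ∧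
      ∀ ε > 0, ∃ t ∈ Ico 0 τ₀, Real.exp (β t 0) < ε := by
  obtain ⟨x0, hx, he⟩ := hd.ex
  obtain ⟨c, hc⟩ := shoot (τ := τ₀) (P := Reach κ τ₀) (x0 := x0) hx (fun c hc => (he c hc).2)
    (fun _ _ _ h => h.rng hκ) (fun _ _ _ _ h h' => h.uniq hκ h')
    (fun _ _ _ _ _ h h' ht => h.lt hκ hr h' ht) (fun _ _ _ _ h => h.down)
    (fun c _ _ h => h.zero hκ hd (he c (h.rng hκ).1).1)
    (fun c hc hx => reach_start hκ h0 h1 hd hc (he c hc).1 hx)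
    (fun _ _ _ h => h.opn hκ hd hr)
    (fun _ _ _ _ _ _ h hc ht hx ht' => reach_closed hκ h1 hd hr h hc ht hx ht')
  exact glue_top h0 hr hc

end Vale.Agent.P244
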